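import Vale.Agent.P245.H507.G3
import Vale.Agent.P245.H766.BOW
import Vale.Agent.P245.H485.FinDefs

/-! # P245 (helper507), row G3: Lemma U as a property of the law (`LUp`), modulo the upper half -/

set_option linter.all false

open MeasureTheory Real Set Filter Topology
open scoped ENNReal ContDiff

namespace Vale.Agent.P245.H507

open LS E1 H468

variable {n m : ℕ} {ρ0 : (Fin n → ℝ) → ℝ} {R : ℝ} {N : (Fin n → ℝ) → ℝ}

/-- **Lemma U as a property of the law** (one field, one projection) -/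
theorem lup_one (hLC : LCd ρ0) [IsProbabilityMeasure (mu ρ0)] (h : CSupp (mu ρ0) R)
    {b t c κ be g0 : ℝ} (hb : 0 < b) (ht : 0 < t) (hc : 0 ≤ c) (hN : Pos N)
    (h1 : EY (mu ρ0) b N = 1) {φ : Fin m → (Fin n → ℝ) → ℝ} (hφ : ∀ a, SB (φ a))
    {Q : (Fin n → ℝ) → Matrix (Fin n) (Fin n) ℝ} (hQ : ∀ i j, SB fun y => Q y i j)
    (hsym : ∀ y, (Q y).transpose = Q y)
    (hop : ∀ y, P254.SP620.fr (Q y * Q y) ≤ P254.SP620.fr (Q y))
    (hκ : 0 ≤ κ) (hD : DBL (mu ρ0) (b + t) κ 0)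
    (hbe : κ * FI (mu ρ0) b N - HE (mu ρ0) b N ≤ be) (hg0 : √(GA (mu ρ0) b N) ≤ g0)
    (hU : Up (mu ρ0) b (b + t) c N φ (fun i j y => Q y i j)) :
    c / 2 * (H468.IP (mu ρ0) b N φ φ - H468.Co (gsn m) (mu ρ0) b N φ (RL c φ)) - be
        - t / 2 * (FI (mu ρ0) b N + c * H468.DE (mu ρ0) b N φ)
      ≤ κ * (√(c * EY (mu ρ0) b (fun y => N y * ∑ a, ∑ k,
            (pd (φ a) k y - ∑ f, Q y k f * pd (φ a) f y) ^ 2))
          + √(H485.mSq (mu ρ0) b N Q / t)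
          + √(H485.mDE (mu ρ0) b N Q + H485.mFl (mu ρ0) b N Q
              + g0 * √(H485.mSq (mu ρ0) b N Q))
          + √(FI (mu ρ0) b N)
          + √(t / b * (FI (mu ρ0) b N + c * H468.DE (mu ρ0) b N φ))) ^ 2 := by
  have h2 := lu_gen hLC h hb ht hc hN h1 hφ (Q := fun i j y => Q y i j) hκ hD hU
  have h3 := H766.bo_W h hb hN hQ hsym hop
  have h4 : EY (mu ρ0) b (fun x => N x * ∑ j, (∑ k, (pd (fun y => Q y j k) k x
      + Q x j k * (sN N k x - DV (mu ρ0) b k x))) ^ 2)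
      ≤ H485.mDE (mu ρ0) b N Q + H485.mFl (mu ρ0) b N Q + g0 * √(H485.mSq (mu ρ0) b N Q) := by
    refine h3.trans ?_
    have h5 := mul_le_mul_of_nonneg_right hg0 (sqrt_nonneg (H485.mSq (mu ρ0) b N Q))
    have e1 : H485.mSq (mu ρ0) b N Q = EY (mu ρ0) b (fun y => N y * P254.SP620.fr (Q y)) := rfl
    have e2 : H485.mDE (mu ρ0) b N Q = EY (mu ρ0) b (fun y => N y * ∑ e, ∑ i, ∑ j,
      pd (fun z => Q z i j) e y ^ 2) := rfl
    have e3 : H485.mFl (mu ρ0) b N Q = EY (mu ρ0) b (fun y => N y * ∑ k, ∑ i, ∑ j,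
      PV (mu ρ0) b i j y * Q y i k * Q y j k) := rfl
    rw [e1] at h5 ⊢
    rw [e2, e3]
    linarith only [h5]
  have h6 := sqrt_le_sqrt h4
  have e4 : EY (mu ρ0) b (fun x => N x * ∑ j, ∑ k, Q x j k ^ 2) = H485.mSq (mu ρ0) b N Q := rfl
  rw [e4] at h2
  have h7 : c / 2 * (H468.IP (mu ρ0) b N φ φ - H468.Co (gsn m) (mu ρ0) b N φ (RL c φ)) - be
        - t / 2 * (FI (mu ρ0) b N + c * H468.DE (mu ρ0) b N φ)
      ≤ c / 2 * (H468.IP (mu ρ0) b N φ φ - H468.Co (gsn m) (mu ρ0) b N φ (RL c φ))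
        - (κ * FI (mu ρ0) b N + 0 - HE (mu ρ0) b N)
        - t / 2 * (FI (mu ρ0) b N + c * H468.DE (mu ρ0) b N φ) := by linarith only [hbe]
  refine h7.trans (h2.trans ?_)
  refine mul_le_mul_of_nonneg_left (pow_le_pow_left₀ (by positivity) ?_ 2) hκ
  linarith only [h6]

end Vale.Agent.P245.H507
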