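import Vale.Agent.P245.H916.LowRL
import Vale.Agent.P254.SP.H620.DK

/-! # P245 (helper507), row G3: Lemma U assembled (lower half + upper half), vector and matrix
fields, in the form consumed by rows FIN and CRACKS -/

set_option linter.all false

open MeasureTheory Real Set Filter Topology
open scoped ENNReal ContDiff

namespace Vale.Agent.P245.H507

open LS E1 H468

variable {n m : ℕ}

/-- the pushed Fisher information of the reveal channel (`JT` of H807, left side of the lower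
half of H916) -/
noncomputable def JT (μ : Measure (Fin n → ℝ)) (s r c : ℝ) (N : (Fin n → ℝ) → ℝ)
    (φ : Fin m → (Fin n → ℝ) → ℝ) : ℝ :=
  ∫ w, EY μ r (fun y => UL μ s r (fun y' => N y' * RL c φ w y') y *
    ∑ i, (sN (UL μ s r (fun y' => N y' * RL c φ w y')) i y - sN (UL μ s r N) i y) ^ 2) ∂(gsn m)

/-- the right side of the upper half -/
noncomputable def UR (μ : Measure (Fin n → ℝ)) (s r c : ℝ) (N : (Fin n → ℝ) → ℝ)
    (φ : Fin m → (Fin n → ℝ) → ℝ) (Q : Fin n → Fin n → (Fin n → ℝ) → ℝ) : ℝ :=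
  √(c * EY μ s (fun x => N x * ∑ a, ∑ j, (pd (φ a) j x - ∑ k, Q j k x * pd (φ a) k x) ^ 2))
    + √(EY μ s (fun x => N x * ∑ j, ∑ k, Q j k x ^ 2) / (r - s))
    + √(EY μ s (fun x => N x * ∑ j, (∑ k, (pd (Q j k) k x
        + Q j k x * (sN N k x - DV μ s k x))) ^ 2))
    + √(FI μ s N)
    + √((r - s) / s * (FI μ s N + c * EY μ s (fun x => N x * ∑ a, ∑ j, pd (φ a) j x ^ 2)))

/-- statement of the upper half -/
def Up (μ : Measure (Fin n → ℝ)) (s r c : ℝ) (N : (Fin n → ℝ) → ℝ)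
    (φ : Fin m → (Fin n → ℝ) → ℝ) (Q : Fin n → Fin n → (Fin n → ℝ) → ℝ) : Prop :=
  √(JT μ s r c N φ) ≤ UR μ s r c N φ Q

variable {ρ0 : (Fin n → ℝ) → ℝ} {R : ℝ} {N : (Fin n → ℝ) → ℝ}

theorem JT_nonneg {μ : Measure (Fin n → ℝ)} [IsProbabilityMeasure μ] {s r c : ℝ} (h : CSupp μ R) (hs : 0 < s)
    (hsr : s ≤ r) (hN : Pos N) {φ : Fin m → (Fin n → ℝ) → ℝ} (hφ : ∀ a, SB (φ a)) :
    0 ≤ JT μ s r c N φ := by
  refine integral_nonneg fun w => EY_nonneg μ r fun y => mul_nonneg ?_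
    (Finset.sum_nonneg fun _ _ => sq_nonneg _)
  exact ((AV.UL_pos h hs hsr (hN.mul (RL_pos hφ c w))).pos y).le

/-- **Lemma U, general form** (`φ : Fin m → field`, any matrix field `Q`) -/
theorem lu_gen (hLC : LCd ρ0) [IsProbabilityMeasure (mu ρ0)] (h : CSupp (mu ρ0) R)
    {b t θ κ D : ℝ} (hb : 0 < b) (ht : 0 < t) (hθ : 0 ≤ θ) (hN : Pos N)
    (h1 : EY (mu ρ0) b N = 1) {φ : Fin m → (Fin n → ℝ) → ℝ} (hφ : ∀ a, SB (φ a))
    {Q : Fin n → Fin n → (Fin n → ℝ) → ℝ}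
    (hκ : 0 ≤ κ) (hD : DBL (mu ρ0) (b + t) κ D)
    (hU : Up (mu ρ0) b (b + t) θ N φ Q) :
    θ / 2 * (H468.IP (mu ρ0) b N φ φ - H468.Co (gsn m) (mu ρ0) b N φ (RL θ φ))
        - (κ * FI (mu ρ0) b N + D - HE (mu ρ0) b N)
        - t / 2 * (FI (mu ρ0) b N + θ * H468.DE (mu ρ0) b N φ)
      ≤ κ * (√(θ * EY (mu ρ0) b (fun x => N x * ∑ a, ∑ j,
            (pd (φ a) j x - ∑ k, Q j k x * pd (φ a) k x) ^ 2))
          + √(EY (mu ρ0) b (fun x => N x * ∑ j, ∑ k, Q j k x ^ 2) / t)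
          + √(EY (mu ρ0) b (fun x => N x * ∑ j, (∑ k, (pd (Q j k) k x
            + Q j k x * (sN N k x - DV (mu ρ0) b k x))) ^ 2))
          + √(FI (mu ρ0) b N)
          + √(t / b * (FI (mu ρ0) b N + θ * H468.DE (mu ρ0) b N φ))) ^ 2 := by
  have h2 := AV.lowRL hLC h hb (le_add_of_nonneg_right ht.le) hN h1 hφ hθ hκ hD
  have h3 : 0 ≤ JT (mu ρ0) b (b + t) θ N φ :=
    JT_nonneg h hb (le_add_of_nonneg_right ht.le) hN hφ
  have h4 : JT (mu ρ0) b (b + t) θ N φ ≤ (UR (mu ρ0) b (b + t) θ N φ Q) ^ 2 := by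
    have := pow_le_pow_left₀ (sqrt_nonneg _) hU 2
    rwa [sq_sqrt h3] at this
  have h5 := mul_le_mul_of_nonneg_left h4 hκ
  have e : UR (mu ρ0) b (b + t) θ N φ Q
      = √(θ * EY (mu ρ0) b (fun x => N x * ∑ a, ∑ j,
            (pd (φ a) j x - ∑ k, Q j k x * pd (φ a) k x) ^ 2))
          + √(EY (mu ρ0) b (fun x => N x * ∑ j, ∑ k, Q j k x ^ 2) / t)
          + √(EY (mu ρ0) b (fun x => N x * ∑ j, (∑ k, (pd (Q j k) k x
            + Q j k x * (sN N k x - DV (mu ρ0) b k x))) ^ 2))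
          + √(FI (mu ρ0) b N)
          + √(t / b * (FI (mu ρ0) b N + θ * H468.DE (mu ρ0) b N φ)) := by
    unfold UR H468.DE
    rw [add_sub_cancel_left]
  rw [e] at h5
  rw [add_sub_cancel_left] at h2
  have h6 : κ * JT (mu ρ0) b (b + t) θ N φ = κ * ∫ w, EY (mu ρ0) (b + t) (fun y =>
      UL (mu ρ0) b (b + t) (fun y' => N y' * RL θ φ w y') y *
        ∑ i, (sN (UL (mu ρ0) b (b + t) (fun y' => N y' * RL θ φ w y')) i y
          - sN (UL (mu ρ0) b (b + t) N) i y) ^ 2) ∂(gsn m) := rfl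
  rw [← h6] at h2
  linarith only [h2, h5]

/-- sum over an enumeration of the entries, derivative index outside -/
theorem sum_enum (e : Fin m ≃ Fin n × Fin n) (F : Fin n → Fin n → Fin n → ℝ) :
    ∑ a : Fin m, ∑ k, F k (e a).1 (e a).2 = ∑ k, ∑ i, ∑ j, F k i j := by
  rw [Equiv.sum_comp e (fun p : Fin n × Fin n => ∑ k, F k p.1 p.2), Fintype.sum_prod_type,
    Finset.sum_congr rfl fun i _ => Finset.sum_comm, Finset.sum_comm]

/-- **Lemma U for matrix fields**: `Ψ = P`, second moments in the notation of row FIN: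
`mSq`, `mDE`, `mRE`, `mDiv` written out -/
theorem lu_mat (e : Fin m ≃ Fin n × Fin n) (hLC : LCd ρ0) [IsProbabilityMeasure (mu ρ0)]
    (h : CSupp (mu ρ0) R) {b t θ κ D : ℝ} (hb : 0 < b) (ht : 0 < t) (hθ : 0 ≤ θ) (hN : Pos N)
    (h1 : EY (mu ρ0) b N = 1) {P Q : (Fin n → ℝ) → Matrix (Fin n) (Fin n) ℝ}
    (hP : ∀ i j, SB fun y => P y i j)
    (hκ : 0 ≤ κ) (hD : DBL (mu ρ0) (b + t) κ D)
    (hU : Up (mu ρ0) b (b + t) θ N (fun a y => P y (e a).1 (e a).2) (fun i j y => Q y i j)) :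
    θ / 2 * (EY (mu ρ0) b (fun y => N y * P254.SP620.fr (P y))
          - H468.Co (gsn m) (mu ρ0) b N (fun a y => P y (e a).1 (e a).2)
            (RL θ fun a y => P y (e a).1 (e a).2))
        - (κ * FI (mu ρ0) b N + D - HE (mu ρ0) b N)
        - t / 2 * (FI (mu ρ0) b N + θ * EY (mu ρ0) b (fun y => N y * ∑ k, ∑ i, ∑ j,
            pd (fun z => P z i j) k y ^ 2))
      ≤ κ * (√(θ * EY (mu ρ0) b (fun y => N y * ∑ k, ∑ i, ∑ j,
            (pd (fun z => P z i j) k y - ∑ f, Q y k f * pd (fun z => P z i j) f y) ^ 2))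
          + √(EY (mu ρ0) b (fun y => N y * P254.SP620.fr (Q y)) / t)
          + √(EY (mu ρ0) b (fun y => N y * ∑ k, (∑ f, (pd (fun z => Q z k f) f y
            + Q y k f * (sN N f y - DV (mu ρ0) b f y))) ^ 2))
          + √(FI (mu ρ0) b N)
          + √(t / b * (FI (mu ρ0) b N + θ * EY (mu ρ0) b (fun y => N y * ∑ k, ∑ i, ∑ j,
            pd (fun z => P z i j) k y ^ 2)))) ^ 2 := by
  have h2 := lu_gen hLC h hb ht hθ hN h1 (φ := fun a y => P y (e a).1 (e a).2)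
    (fun a => hP _ _) (Q := fun i j y => Q y i j) hκ hD hU
  have e1 : H468.IP (mu ρ0) b N (fun a y => P y (e a).1 (e a).2)
      (fun a y => P y (e a).1 (e a).2) = EY (mu ρ0) b (fun y => N y * P254.SP620.fr (P y)) := by
    unfold H468.IP P254.SP620.fr
    congr 1
    funext y
    congr 1
    rw [Equiv.sum_comp e (fun p : Fin n × Fin n => P y p.1 p.2 * P y p.1 p.2),
      Fintype.sum_prod_type]
    simp only [sq]
  have e2 : H468.DE (mu ρ0) b N (fun a y => P y (e a).1 (e a).2)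
      = EY (mu ρ0) b (fun y => N y * ∑ k, ∑ i, ∑ j, pd (fun z => P z i j) k y ^ 2) := by
    unfold H468.DE
    congr 1
    funext y
    congr 1
    exact sum_enum e fun k i j => pd (fun z => P z i j) k y ^ 2
  have e3 : (fun x => N x * ∑ a : Fin m, ∑ k, (pd (fun y => P y (e a).1 (e a).2) k x
        - ∑ f, Q x k f * pd (fun y => P y (e a).1 (e a).2) f x) ^ 2)
      = fun y => N y * ∑ k, ∑ i, ∑ j,
        (pd (fun z => P z i j) k y - ∑ f, Q y k f * pd (fun z => P z i j) f y) ^ 2 := by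
    funext y
    congr 1
    exact sum_enum e fun k i j =>
      (pd (fun z => P z i j) k y - ∑ f, Q y k f * pd (fun z => P z i j) f y) ^ 2
  rw [e1, e2, e3] at h2
  exact h2

/-- **Lemma U for vector fields** in the form consumed by row CRACKS (derivative index inside) -/
theorem lu_vec (hLC : LCd ρ0) [IsProbabilityMeasure (mu ρ0)]
    (h : CSupp (mu ρ0) R) {b t θ κ D : ℝ} (hb : 0 < b) (ht : 0 < t) (hθ : 0 ≤ θ) (hN : Pos N)
    (h1 : EY (mu ρ0) b N = 1) {f : Fin n → (Fin n → ℝ) → ℝ} (hf : ∀ i, SB (f i))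
    {Q : (Fin n → ℝ) → Matrix (Fin n) (Fin n) ℝ}
    (hκ : 0 ≤ κ) (hD : DBL (mu ρ0) (b + t) κ D)
    (hU : Up (mu ρ0) b (b + t) θ N f (fun i j y => Q y i j)) :
    θ / 2 * (E1.IP (mu ρ0) b N f f - H468.Co (gsn n) (mu ρ0) b N f (H468.RL θ f))
        - (κ * FI (mu ρ0) b N + D - HE (mu ρ0) b N)
        - t / 2 * (FI (mu ρ0) b N + θ * E1.DE (mu ρ0) b N f)
      ≤ κ * (√(θ * EY (mu ρ0) b (fun y => N y * ∑ i, ∑ k,
            (pd (f i) k y - ∑ g, Q y k g * pd (f i) g y) ^ 2))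
          + √(EY (mu ρ0) b (fun y => N y * P254.SP620.fr (Q y)) / t)
          + √(EY (mu ρ0) b (fun y => N y * ∑ k, (∑ g, (pd (fun z => Q z k g) g y
            + Q y k g * (sN N g y - DV (mu ρ0) b g y))) ^ 2))
          + √(FI (mu ρ0) b N)
          + √(t / b * (FI (mu ρ0) b N + θ * E1.DE (mu ρ0) b N f))) ^ 2 :=
  lu_gen hLC h hb ht hθ hN h1 hf (Q := fun i j y => Q y i j) hκ hD hU

end Vale.Agent.P245.H507
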