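import Vale.Agent.P245.H507.G3b
import Vale.Agent.P245.H807.LU6
import Vale.Agent.P245.H991.Spec

/-! # P245 (helper507), row G3: Lemma U as a property of the law, `luA` (line A) -/

set_option linter.all false

open MeasureTheory Real Set Filter Topology
open scoped ENNReal ContDiff

namespace Vale.Agent.P245.H507

open LS E1

variable {n m : ℕ} {ρ0 : (Fin n → ℝ) → ℝ} {R : ℝ} {N : (Fin n → ℝ) → ℝ}

/-- the upper half of H807 in the form `Up` -/
theorem up (hLC : LCd ρ0) [IsProbabilityMeasure (mu ρ0)] (h : CSupp (mu ρ0) R) {s r c : ℝ}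
    (hN : Pos N) (hc : 0 ≤ c) {φ : Fin m → (Fin n → ℝ) → ℝ} (hφ : ∀ a, SB (φ a)) (hs : 0 < s)
    (hsr : s < r) {Q : Fin n → Fin n → (Fin n → ℝ) → ℝ} (hQ : ∀ j k, SB (Q j k)) :
    Up (mu ρ0) s r c N φ Q :=
  H807.upper hLC h hN hc hφ hs hsr hQ

/-- **Lemma U as a property of the law, line A** -/
theorem luA (hLC : LCd ρ0) [IsProbabilityMeasure (mu ρ0)] (h : CSupp (mu ρ0) R)
    {b t κ be g0 : ℝ} (hb : 0 < b) (ht : 0 < t) (hN : Pos N) (h1 : EY (mu ρ0) b N = 1)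
    (hκ : 0 ≤ κ) (hD : DBL (mu ρ0) (b + t) κ 0)
    (hbe : κ * FI (mu ρ0) b N - HE (mu ρ0) b N ≤ be) (hg0 : √(GA (mu ρ0) b N) ≤ g0) :
    H991.LUp (mu ρ0) κ b t be g0 N := by
  intro m φ Q c hφ hQ hsym hop hc
  exact lup_one hLC h hb ht hc hN h1 hφ hQ hsym hop hκ hD hbe hg0
    (up hLC h hN hc hφ hb (lt_add_of_pos_right b ht) fun i j => hQ i j)

end Vale.Agent.P245.H507
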